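import Mathlib

/-!
# P181, H49: the inclusion step (removal of a special group)

`incl`: a function on the `m`-subsets of `Z` whose sum over the `m`-subsets of every
`(m+1)`-subset of `Z` is zero vanishes on `C0` as soon as `Z` contains `m + 1` points
outside `C0`.
-/

namespace Vale.Agent.P181.H49

open Finset

variable {α : Type*} [DecidableEq α]

/-- the `m`-subsets of `C0 ∪ Y0` with `j` points in `Y0`, written as pairs. -/
def typ (C0 Y0 : Finset α) (m j : ℕ) : Finset (Finset α × Finset α) :=
  (C0.powersetCard (m - j)) ×ˢ (Y0.powersetCard j)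

theorem incl {m : ℕ} (f : Finset α → ℂ) (C0 Y0 : Finset α) (hC : C0.card = m)
    (hY : m + 1 ≤ Y0.card) (hd : Disjoint C0 Y0)
    (h : ∀ D : Finset α, D ⊆ C0 ∪ Y0 → D.card = m + 1 →
      ∑ x ∈ D, f (D.erase x) = 0) : f C0 = 0 := by
  classical
  -- g j = sum over pairs (P, Q), P ⊆ C0, |P| = m - j, Q ⊆ Y0, |Q| = j
  set g : ℕ → ℂ := fun j => ∑ P ∈ C0.powersetCard (m - j), ∑ Q ∈ Y0.powersetCard j, f (P ∪ Q)
    with hg
  -- general double counting
  have up : ∀ (Y : Finset α) (j : ℕ) (F : Finset α → ℂ),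
      ∑ Q ∈ Y.powersetCard (j + 1), ∑ x ∈ Q, F (Q.erase x)
        = ((Y.card - j : ℕ) : ℂ) * ∑ Q ∈ Y.powersetCard j, F Q := by
    intro Y j F
    have h1 : ∑ Q ∈ Y.powersetCard (j + 1), ∑ x ∈ Q, F (Q.erase x)
        = ∑ Q ∈ Y.powersetCard j, ∑ x ∈ Y \ Q, F Q := by
      rw [Finset.sum_sigma', Finset.sum_sigma']
      refine Finset.sum_bij' (fun p _ => ⟨p.1.erase p.2, p.2⟩) (fun p _ => ⟨insert p.2 p.1, p.2⟩)
        ?_ ?_ ?_ ?_ ?_
      · rintro ⟨Q, x⟩ hp
        simp only [mem_sigma, mem_powersetCard, mem_sdiff] at hp ⊢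
        obtain ⟨⟨hQ, hc⟩, hx⟩ := hp
        refine ⟨⟨(erase_subset _ _).trans hQ, ?_⟩, hQ hx, notMem_erase _ _⟩
        rw [card_erase_of_mem hx, hc]; rfl
      · rintro ⟨Q, x⟩ hp
        simp only [mem_sigma, mem_powersetCard, mem_sdiff] at hp ⊢
        obtain ⟨⟨hQ, hc⟩, hx, hx'⟩ := hp
        refine ⟨⟨insert_subset hx hQ, ?_⟩, mem_insert_self _ _⟩
        rw [card_insert_of_notMem hx', hc]
      · rintro ⟨Q, x⟩ hp
        simp only [mem_sigma] at hp
        simp [insert_erase hp.2]
      · rintro ⟨Q, x⟩ hp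
        simp only [mem_sigma, mem_sdiff] at hp
        simp [erase_insert hp.2.2]
      · rintro ⟨Q, x⟩ hp
        rfl
    rw [h1, Finset.mul_sum]
    refine Finset.sum_congr rfl fun Q hQ => ?_
    rw [mem_powersetCard] at hQ
    rw [Finset.sum_const, card_sdiff_of_subset hQ.1, hQ.2, nsmul_eq_mul]
  have key : ∀ j, j ≤ m → ((j + 1 : ℕ) : ℂ) * g (j + 1) * (if j < m then 1 else 0)
      + ((Y0.card - j : ℕ) : ℂ) * g j = 0 := by
    intro j hj
    -- sum of the hypothesis over D = P ∪ Q, |P| = m - j, |Q| = j + 1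
    have h0 : ∑ P ∈ C0.powersetCard (m - j), ∑ Q ∈ Y0.powersetCard (j + 1),
        ∑ x ∈ P ∪ Q, f ((P ∪ Q).erase x) = 0 := by
      refine Finset.sum_eq_zero fun P hP => Finset.sum_eq_zero fun Q hQ => ?_
      rw [mem_powersetCard] at hP hQ
      have hdd : Disjoint P Q := hd.mono hP.1 hQ.1
      refine h _ (union_subset_union hP.1 hQ.1) ?_
      rw [card_union_of_disjoint hdd, hP.2, hQ.2]; omega
    have h1 : ∀ P ∈ C0.powersetCard (m - j), ∀ Q ∈ Y0.powersetCard (j + 1),
        ∑ x ∈ P ∪ Q, f ((P ∪ Q).erase x)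
          = (∑ x ∈ P, f (P.erase x ∪ Q)) + ∑ x ∈ Q, f (P ∪ Q.erase x) := by
      intro P hP Q hQ
      rw [mem_powersetCard] at hP hQ
      have hdd : Disjoint P Q := hd.mono hP.1 hQ.1
      rw [sum_union hdd]
      congr 1
      · refine Finset.sum_congr rfl fun x hx => ?_
        rw [erase_union_distrib, erase_eq_of_notMem (disjoint_left.mp hdd hx)]
      · refine Finset.sum_congr rfl fun x hx => ?_
        rw [erase_union_distrib, erase_eq_of_notMem (disjoint_right.mp hdd hx)]
    rw [Finset.sum_congr rfl fun P hP => Finset.sum_congr rfl fun Q hQ => h1 P hP Q hQ] at h0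
    simp only [Finset.sum_add_distrib] at h0
    -- second part
    have h2 : ∑ P ∈ C0.powersetCard (m - j), ∑ Q ∈ Y0.powersetCard (j + 1),
        ∑ x ∈ Q, f (P ∪ Q.erase x) = ((Y0.card - j : ℕ) : ℂ) * g j := by
      rw [hg, Finset.mul_sum]
      refine Finset.sum_congr rfl fun P _ => ?_
      exact up Y0 j (fun Q => f (P ∪ Q))
    -- first part
    have h3 : ∑ P ∈ C0.powersetCard (m - j), ∑ Q ∈ Y0.powersetCard (j + 1),
        ∑ x ∈ P, f (P.erase x ∪ Q)
          = ((j + 1 : ℕ) : ℂ) * g (j + 1) * (if j < m then 1 else 0) := by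
      rw [Finset.sum_comm]
      by_cases hjm : j < m
      · rw [if_pos hjm, mul_one, hg]
        simp only
        rw [Finset.sum_comm (s := C0.powersetCard (m - (j + 1))), Finset.mul_sum]
        refine Finset.sum_congr rfl fun Q _ => ?_
        have hh := up C0 (m - (j + 1)) (fun P => f (P ∪ Q))
        have e1 : m - (j + 1) + 1 = m - j := by omega
        have e2 : C0.card - (m - (j + 1)) = j + 1 := by omega
        rw [e1, e2] at hh
        exact hh
      · rw [if_neg hjm, mul_zero]
        refine Finset.sum_eq_zero fun Q _ => Finset.sum_eq_zero fun P hP => ?_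
        rw [mem_powersetCard] at hP
        have : P = ∅ := by
          rw [← Finset.card_eq_zero, hP.2]; omega
        subst this
        simp
    rw [h3, h2] at h0
    exact h0
  -- downward induction
  have down : ∀ i, i ≤ m → g (m - i) = 0 := by
    intro i
    induction i with
    | zero =>
      intro _
      have := key m le_rfl
      rw [if_neg (lt_irrefl _), mul_zero, zero_add] at this
      rcases mul_eq_zero.mp this with h | h
      · exfalso
        have : Y0.card - m = 0 := by exact_mod_cast h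
        omega
      · simpa using h
    | succ i ih =>
      intro hi
      have h1 := ih (by omega)
      have h2 := key (m - (i + 1)) (by omega)
      have e : m - (i + 1) + 1 = m - i := by omega
      rw [e, h1, mul_zero, zero_mul, zero_add] at h2
      rcases mul_eq_zero.mp h2 with h | h
      · exfalso
        have : Y0.card - (m - (i + 1)) = 0 := by exact_mod_cast h
        omega
      · exact h
  have := down m le_rfl
  rw [hg] at this
  simp only [Nat.sub_self, Nat.sub_zero] at this
  rw [← hC, powersetCard_self, powersetCard_zero] at this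
  simpa using this

end Vale.Agent.P181.H49
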