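import Vale.Agent.P181.H49.Incl

/-!
# P181, H49: removal of one special group (pure part)
-/

set_option autoImplicit false

namespace Vale.Agent.P181.H49.R1

open Finset

/-- the boxes `s j` get the values `ψ j`. -/
noncomputable def upd {B A : Type} {k : ℕ} (s : Fin k → B) (ψ : Fin k → A) (e : B → A) : B → A :=
  fun p => open Classical in if h : ∃ j, s j = p then ψ h.choose else e p

lemma upd_app {B A : Type} {k : ℕ} {s : Fin k → B} (hs : Function.Injective s) (ψ : Fin k → A)
    (e : B → A) (j : Fin k) : upd s ψ e (s j) = ψ j := by
  classical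
  have h : ∃ i, s i = s j := ⟨j, rfl⟩
  unfold upd
  rw [dif_pos h]
  congr 1
  exact hs h.choose_spec

lemma upd_not {B A : Type} {k : ℕ} {s : Fin k → B} (ψ : Fin k → A)
    (e : B → A) {p : B} (hp : ∀ j, s j ≠ p) : upd s ψ e p = e p := by
  classical
  unfold upd
  rw [dif_neg]
  rintro ⟨j, hj⟩
  exact hp j hj

/-- sum over the injective enumerations of the image of `s`. -/
lemma sum_enum {B : Type} [Fintype B] [DecidableEq B] {k : ℕ} {s : Fin k → B}
    (hs : Function.Injective s) (Φ : (Fin k → B) → ℂ) :
    ∑ g ∈ univ.filter (fun g : Fin k → B => Function.Injective g ∧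
      univ.image g = univ.image s), Φ g = ∑ τ : Equiv.Perm (Fin k), Φ (fun j => s (τ⁻¹ j)) := by
  classical
  symm
  refine Finset.sum_bij (fun τ _ => fun j => s (τ⁻¹ j)) ?_ ?_ ?_ ?_
  · intro τ _
    rw [mem_filter]
    refine ⟨mem_univ _, ?_, ?_⟩
    · intro x y hxy
      exact (τ⁻¹).injective (hs hxy)
    · ext p
      simp only [mem_image, mem_univ, true_and]
      constructor
      · rintro ⟨j, hj⟩
        exact ⟨_, hj⟩
      · rintro ⟨j, hj⟩
        exact ⟨τ j, by simpa using hj⟩
  · intro τ _ τ' _ h
    have : τ⁻¹ = τ'⁻¹ := by
      ext j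
      have := congrFun h j
      exact congrArg _ (hs this)
    exact inv_injective this
  · intro g hg
    rw [mem_filter] at hg
    obtain ⟨-, hg1, hg2⟩ := hg
    have hex : ∀ j, ∃ i, s i = g j := by
      intro j
      have : g j ∈ univ.image s := by rw [← hg2]; exact mem_image_of_mem _ (mem_univ _)
      simpa using this
    choose t ht using hex
    have htinj : Function.Injective t := by
      intro x y hxy
      apply hg1
      rw [← ht x, ← ht y, hxy]
    let σ : Equiv.Perm (Fin k) := Equiv.ofBijective t (Finite.injective_iff_bijective.mp htinj)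
    refine ⟨σ⁻¹, mem_univ _, ?_⟩
    funext j
    rw [inv_inv]
    exact ht j
  · intro τ _
    rfl

/-- the placement: `g j` gets the row `r j`, the other boxes of `W` the row `z`. -/
noncomputable def pl {B A : Type} [DecidableEq B] {k : ℕ} (r : Fin k → A) (z : A) (W : Finset B)
    (e : B → A) (g : Fin k → B) : B → A :=
  upd g r (fun p => if p ∈ W then z else e p)


lemma pl_app {B A : Type} [DecidableEq B] {k : ℕ} (r : Fin k → A) (z : A) (W : Finset B)
    (e : B → A) {g : Fin k → B} (hg : Function.Injective g) (j : Fin k) :
    pl r z W e g (g j) = r j := upd_app hg _ _ _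

lemma pl_in {B A : Type} [DecidableEq B] {k : ℕ} (r : Fin k → A) (z : A) (W : Finset B)
    (e : B → A) {g : Fin k → B} {p : B} (hp : ∀ j, g j ≠ p) (hW : p ∈ W) :
    pl r z W e g p = z := by
  unfold pl
  rw [upd_not _ _ hp, if_pos hW]

lemma pl_out {B A : Type} [DecidableEq B] {k : ℕ} (r : Fin k → A) (z : A) (W : Finset B)
    (e : B → A) {g : Fin k → B} {p : B} (hp : ∀ j, g j ≠ p) (hW : p ∉ W) :
    pl r z W e g p = e p := by
  unfold pl
  rw [upd_not _ _ hp, if_neg hW]

lemma card_pl {B A : Type} [DecidableEq B] [DecidableEq A] {k : ℕ} {r : Fin k → A} {z : A}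
    {W : Finset B} (e : B → A) (hr : Function.Injective r) (hz : ∀ j, r j ≠ z) {g : Fin k → B}
    (hg : Function.Injective g) (hgW : ∀ j, g j ∈ W) (i : A) :
    (W.filter (fun p => pl r z W e g p = i)).card
      = if (i ∈ univ.image r) then 1 else if i = z then W.card - k else 0 := by
  classical
  by_cases h1 : i ∈ univ.image r
  · rw [if_pos h1]
    obtain ⟨j, -, rfl⟩ := mem_image.mp h1
    rw [card_eq_one]
    refine ⟨g j, ?_⟩
    ext p
    simp only [mem_filter, mem_singleton]
    constructor
    · rintro ⟨hp, he⟩
      by_cases hex : ∃ j', g j' = p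
      · obtain ⟨j', rfl⟩ := hex
        rw [pl_app r z W e hg] at he
        rw [hr he]
      · push Not at hex
        rw [pl_in r z W e hex hp] at he
        exact absurd he.symm (hz j)
    · rintro rfl
      exact ⟨hgW j, pl_app r z W e hg j⟩
  · rw [if_neg h1]
    by_cases h2 : i = z
    · rw [if_pos h2]
      subst h2
      have : W.filter (fun p => pl r i W e g p = i) = W \ univ.image g := by
        ext p
        simp only [mem_filter, mem_sdiff, mem_image, mem_univ, true_and, not_exists]
        constructor
        · rintro ⟨hp, he⟩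
          refine ⟨hp, fun j hj => ?_⟩
          subst hj
          rw [pl_app r i W e hg] at he
          exact hz j he
        · rintro ⟨hp, hj⟩
          exact ⟨hp, pl_in r i W e hj hp⟩
      rw [this, card_sdiff_of_subset, card_image_of_injective _ hg, card_univ, Fintype.card_fin]
      intro p hp
      obtain ⟨j, -, rfl⟩ := mem_image.mp hp
      exact hgW j
    · rw [if_neg h2, card_eq_zero, filter_eq_empty_iff]
      intro p hp he
      by_cases hex : ∃ j', g j' = p
      · obtain ⟨j', rfl⟩ := hex
        rw [pl_app r z W e hg] at he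
        exact h1 (mem_image.mpr ⟨j', mem_univ _, he⟩)
      · push Not at hex
        rw [pl_in r z W e hex hp] at he
        exact h2 he.symm

/-- admissible fillings -/
def Good {B : Type} [DecidableEq B] {a : ℕ} (Z : Finset B) (β : Fin a → ℕ) (e0 : B → Fin a)
    (e : B → Fin a) : Prop :=
  (∀ p, p ∉ Z → e p = e0 p) ∧ ∀ i, (Z.filter (fun p => e p = i)).card = β i

theorem step {B : Type} [Fintype B] [DecidableEq B] {a : ℕ} (V : (B → Fin a) → ℂ) (Z : Finset B)
    (β : Fin a → ℕ) (e0 : B → Fin a) (π : Equiv.Perm (Fin a))
    (hβ : ∀ m : Fin a, (m : ℕ) + 1 ≤ β (π m)) (m : ℕ) (hm : m + 1 ≤ a) (hm' : m ≤ a)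
    (ih : ∀ e : B → Fin a, Good Z β e0 e → ∀ s : Fin (m + 1) → B, (∀ j, s j ∈ Z) →
      (∀ j, e (s j) = π (Fin.castLE hm j)) →
      ∑ τ : Equiv.Perm (Fin (m + 1)), V (upd s (fun j => π (Fin.castLE hm (τ j))) e) = 0)
    (e : B → Fin a) (he : Good Z β e0 e) (s : Fin m → B) (hs : ∀ j, s j ∈ Z)
    (hse : ∀ j, e (s j) = π (Fin.castLE hm' j)) :
    ∑ τ : Equiv.Perm (Fin m), V (upd s (fun j => π (Fin.castLE hm' (τ j))) e) = 0 := by
  classical
  obtain ⟨he1, he2⟩ := he
  set z : Fin a := π ⟨m, hm⟩ with hz
  set r : Fin m → Fin a := fun j => π (Fin.castLE hm' j) with hr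
  have hrinj : Function.Injective r := by
    intro x y hxy
    have := π.injective hxy
    exact Fin.castLE_injective hm' this
  have hrz : ∀ j, r j ≠ z := by
    intro j h
    have := π.injective h
    have h2 := congrArg Fin.val this
    simp only [Fin.val_castLE] at h2
    have := j.isLt
    omega
  have hsinj : Function.Injective s := by
    intro x y hxy
    apply hrinj
    show π _ = π _
    rw [← hse x, ← hse y, hxy]
  set X : Finset B := univ.image s with hX
  set Y : Finset B := Z.filter (fun p => e p = z) with hY
  set W : Finset B := X ∪ Y with hW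
  have hXY : Disjoint X Y := by
    rw [disjoint_left]
    intro p hp hq
    obtain ⟨j, -, rfl⟩ := mem_image.mp hp
    rw [hY, mem_filter, hse j] at hq
    exact hrz j hq.2
  have hWZ : W ⊆ Z := by
    apply union_subset
    · intro p hp
      obtain ⟨j, -, rfl⟩ := mem_image.mp hp
      exact hs j
    · exact filter_subset _ _
  have hsW : ∀ j, s j ∈ W := fun j => mem_union_left _ (mem_image_of_mem _ (mem_univ _))
  -- e is the placement of s
  have hepl : ∀ τ : Equiv.Perm (Fin m), pl r z W e (fun j => s (τ⁻¹ j))
      = upd s (fun j => r (τ j)) e := by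
    intro τ
    have hinj : Function.Injective (fun j => s (τ⁻¹ j)) := fun x y hxy =>
      (τ⁻¹).injective (hsinj hxy)
    funext p
    by_cases hex : ∃ j, s j = p
    · obtain ⟨j, rfl⟩ := hex
      rw [upd_app hsinj]
      have h1 := pl_app r z W e hinj (τ j)
      simpa using h1
    · push Not at hex
      rw [upd_not _ _ hex]
      have hex' : ∀ j, (fun j => s (τ⁻¹ j)) j ≠ p := fun j => hex _
      by_cases hp : p ∈ W
      · rw [pl_in r z W e hex' hp]
        rcases mem_union.mp hp with h | h
        · obtain ⟨j, -, hj⟩ := mem_image.mp h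
          exact absurd hj (hex j)
        · exact (mem_filter.mp h).2.symm
      · rw [pl_out r z W e hex' hp]
  set f : Finset B → ℂ := fun C => ∑ g ∈ univ.filter (fun g : Fin m → B =>
    Function.Injective g ∧ univ.image g = C), V (pl r z W e g) with hf
  have hfX : f X = ∑ τ : Equiv.Perm (Fin m), V (upd s (fun j => r (τ j)) e) := by
    rw [hf]
    simp only
    rw [hX, sum_enum hsinj (fun g => V (pl r z W e g))]
    refine Finset.sum_congr rfl fun τ _ => ?_
    rw [hepl τ]
  rw [← hfX]
  refine incl f X Y (m := m) ?_ ?_ hXY ?_
  · rw [hX, card_image_of_injective _ hsinj, card_univ, Fintype.card_fin]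
  · rw [hY, he2 z]
    exact hβ ⟨m, hm⟩
  · intro D hD hDc
    have hDW : D ⊆ W := hD
    set d : Fin (m + 1) → B := fun j => ((D.equivFinOfCardEq hDc).symm j : B) with hd
    have hdinj : Function.Injective d := by
      intro x y hxy
      exact (D.equivFinOfCardEq hDc).symm.injective (Subtype.ext hxy)
    have hdD : ∀ j, d j ∈ D := fun j => ((D.equivFinOfCardEq hDc).symm j).2
    have hdim : univ.image d = D := by
      apply eq_of_subset_of_card_le
      · intro p hp
        obtain ⟨j, -, rfl⟩ := mem_image.mp hp
        exact hdD j
      · rw [card_image_of_injective _ hdinj, card_univ, Fintype.card_fin, hDc]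
    have hd'inj : Function.Injective (fun j : Fin m => d (Fin.castSucc j)) := fun x y hxy =>
      Fin.castSucc_injective m (hdinj hxy)
    have hdW : ∀ p, p ∉ W → ∀ j : Fin m, (fun j : Fin m => d (Fin.castSucc j)) j ≠ p := by
      intro p hp j hj
      apply hp
      rw [← hj]
      exact hDW (hdD _)
    set e' : B → Fin a := pl r z W e (fun j : Fin m => d (Fin.castSucc j)) with he'
    have hgood : Good Z β e0 e' := by
      constructor
      · intro p hp
        have hpW : p ∉ W := fun h => hp (hWZ h)
        rw [he', pl_out r z W e (hdW p hpW) hpW]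
        exact he1 p hp
      · intro i
        rw [← he2 i]
        have hsplit : ∀ q : B → Fin a, (Z.filter (fun p => q p = i)).card
            = (W.filter (fun p => q p = i)).card + ((Z \ W).filter (fun p => q p = i)).card := by
          intro q
          rw [← card_union_of_disjoint, ← filter_union, union_sdiff_of_subset hWZ]
          exact disjoint_filter_filter disjoint_sdiff
        rw [hsplit e', hsplit e]
        congr 1
        · have h1 := card_pl e hrinj hrz hd'inj (fun j => hDW (hdD _)) i
          have h2 := card_pl e hrinj hrz hsinj hsW i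
          have h3 : pl r z W e s = e := by
            have := hepl 1
            simp only [inv_one, Equiv.Perm.coe_one, id] at this
            rw [this]
            funext p
            by_cases hex : ∃ j, s j = p
            · obtain ⟨j, rfl⟩ := hex
              rw [upd_app hsinj, hse j]
            · push Not at hex
              rw [upd_not _ _ hex]
          rw [h3] at h2
          rw [h2, ← h1]
        · refine congrArg card (filter_congr fun p hp => ?_)
          rw [mem_sdiff] at hp
          rw [he', pl_out r z W e (hdW p hp.2) hp.2]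
    have hlast : ∀ j : Fin m, (fun j : Fin m => d (Fin.castSucc j)) j ≠ d (Fin.last m) := by
      intro j h
      exact (Fin.castSucc_lt_last j).ne (hdinj h)
    have hed : ∀ j, e' (d j) = π (Fin.castLE hm j) := by
      intro j
      refine Fin.lastCases ?_ (fun i => ?_) j
      · rw [he', pl_in r z W e hlast (hDW (hdD _))]
        rfl
      · rw [he', pl_app r z W e hd'inj i]
        rfl
    have hih := ih e' hgood d (fun j => hWZ (hDW (hdD j))) hed
    rw [← hih]
    -- both sides are sums over enumerations of D
    have hsum : ∑ x ∈ D, f (D.erase x) = ∑ g' ∈ univ.filter (fun g' : Fin (m + 1) → B =>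
        Function.Injective g' ∧ univ.image g' = univ.image d),
        V (pl r z W e (fun j : Fin m => g' (Fin.castSucc j))) := by
      rw [hf]
      simp only
      rw [Finset.sum_sigma']
      refine Finset.sum_bij' (fun p _ => Fin.snoc (α := fun _ => B) p.2 p.1)
        (fun g' _ => ⟨g' (Fin.last m), fun j => g' (Fin.castSucc j)⟩) ?_ ?_ ?_ ?_ ?_
      · rintro ⟨x, g⟩ hp
        simp only [mem_sigma, mem_filter, mem_univ, true_and] at hp ⊢
        obtain ⟨hx, hg1, hg2⟩ := hp
        have hxg : ∀ j, g j ≠ x := by
          intro j hj
          have : g j ∈ D.erase x := by rw [← hg2]; exact mem_image_of_mem _ (mem_univ _)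
          rw [mem_erase] at this
          exact this.1 hj
        constructor
        · intro i j
          refine Fin.lastCases ?_ (fun i => ?_) i
          · refine Fin.lastCases ?_ (fun j => ?_) j
            · intro _; rfl
            · intro h
              rw [Fin.snoc_last, Fin.snoc_castSucc] at h
              exact absurd h.symm (hxg j)
          · refine Fin.lastCases ?_ (fun j => ?_) j
            · intro h
              rw [Fin.snoc_last, Fin.snoc_castSucc] at h
              exact absurd h (hxg i)
            · intro h
              rw [Fin.snoc_castSucc, Fin.snoc_castSucc] at h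
              rw [hg1 h]
        · rw [hdim]
          ext p
          simp only [mem_image, mem_univ, true_and]
          constructor
          · rintro ⟨j, hj⟩
            revert hj
            refine Fin.lastCases ?_ (fun i => ?_) j
            · intro hj
              rw [Fin.snoc_last] at hj
              exact hj ▸ hx
            · intro hj
              rw [Fin.snoc_castSucc] at hj
              have : g i ∈ D.erase x := by rw [← hg2]; exact mem_image_of_mem _ (mem_univ _)
              rw [hj] at this
              exact mem_of_mem_erase this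
          · intro hp
            by_cases hpx : p = x
            · exact ⟨Fin.last m, by rw [Fin.snoc_last, hpx]⟩
            · have : p ∈ univ.image g := by rw [hg2]; exact mem_erase.mpr ⟨hpx, hp⟩
              obtain ⟨j, -, hj⟩ := mem_image.mp this
              exact ⟨Fin.castSucc j, by rw [Fin.snoc_castSucc]; exact hj⟩
      · intro g' hg'
        simp only [mem_sigma, mem_filter, mem_univ, true_and] at hg' ⊢
        obtain ⟨hg1, hg2⟩ := hg'
        rw [hdim] at hg2
        refine ⟨?_, ?_, ?_⟩
        · rw [← hg2]; exact mem_image_of_mem _ (mem_univ _)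
        · exact fun x y hxy => Fin.castSucc_injective m (hg1 hxy)
        · ext p
          rw [mem_erase, ← hg2]
          simp only [mem_image, mem_univ, true_and]
          constructor
          · rintro ⟨j, hj⟩
            refine ⟨?_, _, hj⟩
            rintro rfl
            exact (Fin.castSucc_lt_last j).ne (hg1 hj)
          · rintro ⟨hne, j, hj⟩
            revert hj
            refine Fin.lastCases ?_ (fun i => ?_) j
            · intro hj
              exact absurd hj.symm hne
            · intro hj
              exact ⟨i, hj⟩
      · rintro ⟨x, g⟩ _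
        simp only [Fin.snoc_last, Fin.snoc_castSucc]
      · intro g' _
        simp only
        exact Fin.snoc_init_self g'
      · rintro ⟨x, g⟩ _
        simp only [Fin.snoc_castSucc]
    rw [hsum, sum_enum hdinj (fun g' => V (pl r z W e (fun j : Fin m => g' (Fin.castSucc j))))]
    refine Finset.sum_congr rfl fun τ _ => congrArg V ?_
    have hinj2 : Function.Injective (fun j : Fin m => d (τ⁻¹ (Fin.castSucc j))) := fun x y hxy =>
      Fin.castSucc_injective m ((τ⁻¹).injective (hdinj hxy))
    funext p
    by_cases hex : ∃ j, d j = p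
    · obtain ⟨j, rfl⟩ := hex
      rw [upd_app hdinj]
      have : ∀ i : Fin (m + 1), τ j = i → pl r z W e (fun j : Fin m => d (τ⁻¹ (Fin.castSucc j)))
          (d j) = π (Fin.castLE hm i) := by
        intro i
        refine Fin.lastCases ?_ (fun i => ?_) i
        · intro hi
          rw [pl_in r z W e _ (hDW (hdD _))]
          · rfl
          · intro j' hj'
            have h1 := hdinj hj'
            have h2 : Fin.castSucc j' = τ j := by rw [← h1]; simp
            rw [hi] at h2
            exact (Fin.castSucc_lt_last j').ne h2
        · intro hi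
          have h1 := pl_app r z W e hinj2 i
          have h2 : τ⁻¹ (Fin.castSucc i) = j := by rw [← hi]; simp
          simp only [h2] at h1
          rw [h1]
          rfl
      exact this _ rfl
    · push Not at hex
      rw [upd_not _ _ hex]
      have hex2 : ∀ j, (fun j : Fin m => d (τ⁻¹ (Fin.castSucc j))) j ≠ p := fun j => hex _
      have hex3 : ∀ j, (fun j : Fin m => d (Fin.castSucc j)) j ≠ p := fun j => hex _
      by_cases hp : p ∈ W
      · rw [pl_in r z W e hex2 hp, he', pl_in r z W e hex3 hp]
      · rw [pl_out r z W e hex2 hp, he', pl_out r z W e hex3 hp]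

theorem main {B : Type} [Fintype B] [DecidableEq B] {a : ℕ} (V : (B → Fin a) → ℂ) (Z : Finset B)
    (β : Fin a → ℕ) (e0 : B → Fin a) (π : Equiv.Perm (Fin a))
    (hβ : ∀ m : Fin a, (m : ℕ) + 1 ≤ β (π m))
    (hrel : ∀ e : B → Fin a, Good Z β e0 e → ∀ s : Fin a → B, (∀ j, s j ∈ Z) →
      (∀ j, e (s j) = π j) → ∑ τ : Equiv.Perm (Fin a), V (upd s (fun j => π (τ j)) e) = 0)
    (e : B → Fin a) (he : Good Z β e0 e) : V e = 0 := by
  have key : ∀ i : ℕ, ∀ k (hk : k ≤ a), k + i = a → ∀ e : B → Fin a, Good Z β e0 e →
      ∀ s : Fin k → B, (∀ j, s j ∈ Z) → (∀ j, e (s j) = π (Fin.castLE hk j)) →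
      ∑ τ : Equiv.Perm (Fin k), V (upd s (fun j => π (Fin.castLE hk (τ j))) e) = 0 := by
    intro i
    induction i with
    | zero =>
      intro k hk hka
      rw [add_zero] at hka
      subst hka
      intro e he s hs hse
      exact hrel e he s hs hse
    | succ i ih =>
      intro k hk hka
      exact step V Z β e0 π hβ k (by omega) hk (ih (k + 1) (by omega) (by omega))
  have h0 := key a 0 (Nat.zero_le _) (by omega) e he (fun j => j.elim0) (fun j => j.elim0)
    (fun j => j.elim0)
  have huniq : ∀ τ : Equiv.Perm (Fin 0),
      upd (fun j : Fin 0 => (j.elim0 : B)) (fun j => π (Fin.castLE (Nat.zero_le a) (τ j))) e = e := by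
    intro τ
    funext p
    exact upd_not _ _ (fun j => j.elim0)
  simp only [huniq] at h0
  simpa using h0

end Vale.Agent.P181.H49.R1
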