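import Vale.Agent.P181.LK.Spec
import Vale.Agent.P181.H49.R1Core

/-!
# P181, LK: row R1
-/

set_option autoImplicit false

namespace Vale.Agent.P181.H49

open Finset Vale.Agent.P181.LK

theorem rowR1 : RowR1 := by
  intro B _ _ a V Z β e0 π hβ hrel e he1 he2
  refine R1.main V Z β e0 π hβ ?_ e ⟨he1, he2⟩
  intro e he s hs hse
  have h := hrel e he.1 he.2 (fun i => s (π⁻¹ i)) (fun i => hs _) (fun i => by
    rw [hse]; simp)
  have hsinj : Function.Injective s := by
    intro x y hxy
    apply π.injective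
    rw [← hse x, ← hse y, hxy]
  rw [← h]
  refine Fintype.sum_equiv (MulAut.conj π).toEquiv _ _ fun τ => congrArg V ?_
  have hs' : Function.Injective (fun i => s (π⁻¹ i)) := fun x y hxy => (π⁻¹).injective (hsinj hxy)
  funext p
  by_cases hex : ∃ j, s j = p
  · obtain ⟨j, rfl⟩ := hex
    rw [R1.upd_app hsinj]
    have h1 := R1.upd_app hs' (MulAut.conj π τ) e (π j)
    have h2 : s (π⁻¹ (π j)) = s j := by simp
    rw [h2] at h1
    show _ = R1.upd (fun i => s (π⁻¹ i)) (MulAut.conj π τ) e (s j)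
    rw [h1]
    simp [MulAut.conj_apply]
  · push Not at hex
    rw [R1.upd_not _ _ hex]
    show _ = R1.upd (fun i => s (π⁻¹ i)) (MulAut.conj π τ) e p
    rw [R1.upd_not _ _ (fun j => hex _)]

end Vale.Agent.P181.H49
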