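import Mathlib.Algebra.Order.Antidiag.Pi
import Mathlib.Data.Nat.Choose.Multinomial
import Mathlib.Data.Complex.Basic
import Mathlib.Tactic

/-!
P181: removal lemma for the graph power map theorem.
-/

set_option autoImplicit false

namespace Vale.Agent.P181.H49

open Finset

/-- Greedy choice of weights. -/
lemma greedy {a H : ℕ} (bad : Fin a → Fin a → ℕ → ℕ → Prop)
    (hcard : ∀ (i : Fin a) (lam : Fin a → ℕ),
      ∃ S : Finset ℕ, S.card ≤ H ∧ ∀ x, (∃ l, l ≠ i ∧ bad i l x (lam l)) → x ∈ S) :
    ∃ lam : Fin a → ℕ, (∀ i, lam i ≤ H) ∧ ∀ i l, l < i → ¬ bad i l (lam i) (lam l) := by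
  classical
  have main : ∀ j : ℕ, ∃ lam : Fin a → ℕ, (∀ i, lam i ≤ H) ∧
      ∀ i l : Fin a, (i : ℕ) < j → l < i → ¬ bad i l (lam i) (lam l) := by
    intro j
    induction j with
    | zero => exact ⟨fun _ => 0, fun _ => Nat.zero_le _, fun i l h => absurd h (Nat.not_lt_zero _)⟩
    | succ j ih =>
      obtain ⟨lam, h1, h2⟩ := ih
      by_cases hj : j < a
      · obtain ⟨S, hS, hS2⟩ := hcard ⟨j, hj⟩ lam
        have h3 : ∃ x ∈ range (H + 1), x ∉ S := by
          by_contra hcon
          push Not at hcon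
          have h4 : (range (H + 1)).card ≤ S.card := card_le_card (fun x hx => hcon x hx)
          rw [card_range] at h4
          omega
        obtain ⟨x, hx, hxS⟩ := h3
        have hx' : x ≤ H := by
          have := mem_range.1 hx
          omega
        refine ⟨Function.update lam ⟨j, hj⟩ x, ?_, ?_⟩
        · intro i
          by_cases hi : i = ⟨j, hj⟩
          · subst hi; simpa using hx'
          · rw [Function.update_of_ne hi]; exact h1 i
        · intro i l hi hl
          have hlj : l ≠ ⟨j, hj⟩ := by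
            intro h
            subst h
            have : (⟨j, hj⟩ : Fin a) < i := hl
            have h5 : j < (i : ℕ) := this
            omega
          rw [Function.update_of_ne hlj]
          by_cases hi2 : i = ⟨j, hj⟩
          · subst hi2
            rw [Function.update_self]
            intro hb
            exact hxS (hS2 x ⟨l, hlj, hb⟩)
          · rw [Function.update_of_ne hi2]
            have h5 : (i : ℕ) < j := by
              have h6 : (i : ℕ) ≠ j := fun h => hi2 (Fin.ext h)
              omega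
            exact h2 i l h5 hl
      · refine ⟨lam, h1, fun i l hi hl => h2 i l ?_ hl⟩
        have := i.2
        omega
  obtain ⟨lam, h1, h2⟩ := main a
  exact ⟨lam, h1, fun i l hl => h2 i l i.2 hl⟩

/-- Weights which separate the dominant entries of every row. -/
lemma weights {a s κ Q H r : ℕ} (E : Fin a → Fin a → ℕ) (hr : 1 ≤ r)
    (hsupp : ∀ t, (univ.filter (fun i => E t i ≠ 0)).card ≤ s)
    (hcol : ∀ i, ∑ t, E t i ≤ Q)
    (h3 : (Q / r) * ((s - 1) * (2 * κ + 1)) ≤ H) :
    ∃ lam : Fin a → ℕ, (∀ i, lam i ≤ H) ∧ ∀ t i l, i ≠ l → r ≤ E t i → r ≤ E t l →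
      (E t i + lam i + κ < E t l + lam l ∨ E t l + lam l + κ < E t i + lam i) := by
  classical
  obtain ⟨lam, h1, h2⟩ := greedy (H := H) (fun i l x y => ∃ t, r ≤ E t i ∧ r ≤ E t l ∧
    ¬ (E t i + x + κ < E t l + y ∨ E t l + y + κ < E t i + x)) (fun i lam => by
      refine ⟨(univ.filter (fun t => r ≤ E t i)).biUnion (fun t =>
        ((univ.filter (fun l => E t l ≠ 0)).erase i).biUnion (fun l =>
          (Finset.Icc (E t l + lam l - κ - E t i) (E t l + lam l + κ - E t i)))), ?_, ?_⟩
      · have hT : (univ.filter (fun t => r ≤ E t i)).card ≤ Q / r := by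
          rw [Nat.le_div_iff_mul_le (by omega)]
          calc (univ.filter (fun t => r ≤ E t i)).card * r
              = ∑ t ∈ univ.filter (fun t => r ≤ E t i), r := by rw [sum_const, smul_eq_mul]
            _ ≤ ∑ t ∈ univ.filter (fun t => r ≤ E t i), E t i :=
                sum_le_sum (fun t ht => (mem_filter.1 ht).2)
            _ ≤ ∑ t, E t i := sum_le_sum_of_subset (filter_subset _ _)
            _ ≤ Q := hcol i
        calc _ ≤ ∑ t ∈ univ.filter (fun t => r ≤ E t i), ((s - 1) * (2 * κ + 1)) := by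
              refine card_biUnion_le.trans (sum_le_sum (fun t ht => ?_))
              have ht' := (mem_filter.1 ht).2
              refine card_biUnion_le.trans ?_
              calc _ ≤ ∑ l ∈ (univ.filter (fun l => E t l ≠ 0)).erase i, (2 * κ + 1) := by
                    refine sum_le_sum (fun l _ => ?_)
                    rw [Nat.card_Icc]
                    omega
                _ = ((univ.filter (fun l => E t l ≠ 0)).erase i).card * (2 * κ + 1) := by
                    rw [sum_const, smul_eq_mul]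
                _ ≤ (s - 1) * (2 * κ + 1) := by
                    apply Nat.mul_le_mul_right
                    rw [card_erase_of_mem (by rw [mem_filter]; exact ⟨mem_univ _, by omega⟩)]
                    exact Nat.sub_le_sub_right (hsupp t) 1
          _ = (univ.filter (fun t => r ≤ E t i)).card * ((s - 1) * (2 * κ + 1)) := by
              rw [sum_const, smul_eq_mul]
          _ ≤ (Q / r) * ((s - 1) * (2 * κ + 1)) := Nat.mul_le_mul_right _ hT
          _ ≤ H := h3
      · rintro x ⟨l, hli, t, ht1, ht2, ht3⟩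
        rw [mem_biUnion]
        refine ⟨t, by rw [mem_filter]; exact ⟨mem_univ _, ht1⟩, ?_⟩
        rw [mem_biUnion]
        refine ⟨l, by rw [mem_erase, mem_filter]; exact ⟨hli, mem_univ _, by omega⟩, ?_⟩
        rw [mem_Icc]
        omega)
  refine ⟨lam, h1, ?_⟩
  intro t i l hil hi hl
  rcases lt_or_gt_of_ne hil with h | h
  · by_contra hc
    refine h2 l i h ⟨t, hl, hi, ?_⟩
    tauto
  · by_contra hc
    exact h2 i l h ⟨t, hi, hl, hc⟩

/-- One row of the potential estimate. -/
lemma row_est {a κ : ℕ} (e E D : Fin a → ℤ) (lam : Fin a → ℤ) (he : ∀ l, e l = E l + lam l)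
    (i : Fin a) (n : Fin a → ℕ) (hn : ∑ l, n l = κ)
    (hD : ∀ l, D l = (n l : ℤ) - (if l = i then (κ : ℤ) else 0))
    (htop : ∀ l, l ≠ i → n l ≠ 0 → e l + κ < e i) :
    ∑ l, ((E l + D l) ^ 2 - (E l) ^ 2) ≤ -2 * ((κ : ℤ) - n i) - 2 * ∑ l, lam l * D l := by
  classical
  have hsum : ∑ l, D l = 0 := by
    simp only [hD, sum_sub_distrib]
    rw [Finset.sum_ite_eq' univ i (fun _ => (κ : ℤ))]
    simp only [mem_univ, if_true]
    have : ((∑ l, n l : ℕ) : ℤ) = κ := by rw [hn]
    push_cast at this
    linarith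
  have hni : (n i : ℤ) ≤ κ := by
    have : n i ≤ ∑ l, n l := single_le_sum (fun _ _ => Nat.zero_le _) (mem_univ i)
    rw [hn] at this
    exact_mod_cast this
  have hrest : ∑ l ∈ univ.erase i, (n l : ℤ) = (κ : ℤ) - n i := by
    have h1 : (∑ l ∈ univ.erase i, (n l : ℤ)) + n i = ∑ l, (n l : ℤ) :=
      sum_erase_add univ (fun l => (n l : ℤ)) (mem_univ i)
    have h2 : (∑ l, (n l : ℤ)) = κ := by exact_mod_cast hn
    linarith
  have hDi : D i = (n i : ℤ) - κ := by rw [hD]; simp
  have hDl : ∀ l, l ≠ i → D l = n l := by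
    intro l hl; rw [hD]; simp [hl]
  have key : ∑ l, (2 * (e l - e i) * D l + (D l) ^ 2) ≤ -2 * ((κ : ℤ) - n i) := by
    rw [← sum_erase_add univ _ (mem_univ i)]
    have h1 : ∑ l ∈ univ.erase i, (2 * (e l - e i) * D l + (D l) ^ 2) ≤
        ∑ l ∈ univ.erase i, ((-2 * ((κ : ℤ) + 1) + ((κ : ℤ) - n i)) * (n l : ℤ)) := by
      refine sum_le_sum (fun l hl => ?_)
      have hli := (mem_erase.1 hl).1
      rw [hDl l hli]
      by_cases h0 : n l = 0
      · rw [h0]; simp
      · have h2 := htop l hli h0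
        have h3 : (n l : ℤ) ≤ (κ : ℤ) - n i := by
          rw [← hrest]
          exact single_le_sum (f := fun l => (n l : ℤ)) (fun _ _ => Int.natCast_nonneg _) hl
        have h4 : (0 : ℤ) ≤ n l := Int.natCast_nonneg _
        have h5 : 2 * (e l - e i) ≤ -2 * ((κ : ℤ) + 1) := by linarith
        nlinarith
    rw [← mul_sum, hrest] at h1
    have h6 : 2 * (e i - e i) * D i + (D i) ^ 2 = ((κ : ℤ) - n i) ^ 2 := by
      rw [hDi]; ring
    rw [h6]
    have h7 : (0 : ℤ) ≤ n i := Int.natCast_nonneg _
    nlinarith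
  have hexp : ∑ l, ((E l + D l) ^ 2 - (E l) ^ 2) =
      ∑ l, (2 * (e l - e i) * D l + (D l) ^ 2) + 2 * e i * ∑ l, D l - 2 * ∑ l, lam l * D l := by
    rw [mul_sum, mul_sum, ← sum_add_distrib, ← sum_sub_distrib]
    refine sum_congr rfl (fun l _ => ?_)
    rw [he l]
    ring
  rw [hexp, hsum]
  linarith

/-- The set of the matrices with row sums `κ` and column sums `β`. -/
noncomputable def Dist (a κ : ℕ) (β : Fin a → ℕ) : Finset (Fin a → Fin a → ℕ) :=
  (Fintype.piFinset (fun _ : Fin a => (Finset.univ : Finset (Fin a)).piAntidiag κ)).filter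
    (fun n => ∀ i, ∑ t, n t i = β i)

lemma mem_Dist {a κ : ℕ} {β : Fin a → ℕ} {n : Fin a → Fin a → ℕ} :
    n ∈ Dist a κ β ↔ (∀ t, ∑ i, n t i = κ) ∧ ∀ i, ∑ t, n t i = β i := by
  rw [Dist, mem_filter, Fintype.mem_piFinset]
  simp [Finset.mem_piAntidiag]

/-- **Removal lemma.** -/
theorem removal {a s c κ Q H r : ℕ} (G : (Fin a → Fin a → ℕ) → ℂ)
    (hsupp : ∀ E, G E ≠ 0 → ∀ t, (univ.filter (fun i => E t i ≠ 0)).card ≤ s)
    (hcol : ∀ E, G E ≠ 0 → ∀ i, ∑ t, E t i ≤ Q)
    (hrel : ∀ P : Fin a → Fin a → ℕ, (∀ t, ∑ i, P t i = c) → (∀ t, 1 ≤ P t t) →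
      ∀ β : Fin a → ℕ, ∑ n ∈ Dist a κ β,
        (∏ t, (Nat.multinomial univ (n t) : ℂ)) * G (fun t i => P t i + n t i) = 0)
    (h1 : s * (r + H + κ) ≤ c + κ) (h2 : κ + 1 ≤ r)
    (h3 : (Q / r) * ((s - 1) * (2 * κ + 1)) ≤ H) :
    ∀ E : Fin a → Fin a → ℕ, (∀ t, ∑ i, E t i = c + κ) → (∀ t, 1 ≤ E t t) → G E = 0 := by
  classical
  let σ : (Fin a → Fin a → ℕ) → ℕ := fun E => ∑ t, (univ.filter (fun i => E t i ≠ 0)).card
  let Φ : (Fin a → Fin a → ℕ) → ℕ := fun E => ∑ t, ∑ i, (E t i) ^ 2
  have hσ : ∀ E, σ E ≤ a * a := by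
    intro E
    calc σ E ≤ ∑ _t : Fin a, a := sum_le_sum (fun t _ => (card_le_univ _).trans (by simp))
      _ = a * a := by simp
  by_contra hcon
  push Not at hcon
  let S : Set (Fin a → Fin a → ℕ) :=
    {E | (∀ t, ∑ i, E t i = c + κ) ∧ (∀ t, 1 ≤ E t t) ∧ G E ≠ 0}
  have hne : S.Nonempty := by
    obtain ⟨E, hE⟩ := hcon
    exact ⟨E, hE⟩
  obtain ⟨E, hE, hmin⟩ := WellFounded.has_min
    (InvImage.wf (fun E => toLex (a * a - σ E, Φ E)) (wellFounded_lt (α := ℕ ×ₗ ℕ))) S hne
  obtain ⟨hE1, hE2, hE3⟩ := hE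
  obtain ⟨lam, hl1, hl2⟩ := weights (κ := κ) (H := H) (r := r) E (by omega) (hsupp E hE3)
    (hcol E hE3) h3
  -- the dominant index of every row
  have htop : ∀ t, ∃ i, r + κ ≤ E t i ∧ ∀ l, l ≠ i → E t l ≠ 0 →
      E t l + lam l + κ < E t i + lam i := by
    intro t
    obtain ⟨i, hi, himax⟩ := exists_max_image (univ.filter (fun i => E t i ≠ 0))
      (fun i => E t i + lam i) ⟨t, by
        rw [mem_filter]; exact ⟨mem_univ _, by have := hE2 t; omega⟩⟩
    have hbig : ∃ j, r + H + κ ≤ E t j := by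
      by_contra hc
      push Not at hc
      have h4 : ∑ i, E t i ≤ ∑ i ∈ univ.filter (fun i => E t i ≠ 0), (r + H + κ - 1) := by
        rw [← sum_filter_ne_zero]
        refine sum_le_sum (fun j _ => ?_)
        have := hc j
        omega
      rw [sum_const, smul_eq_mul, hE1 t] at h4
      have h5 := Nat.mul_le_mul_right (r + H + κ - 1) (hsupp E hE3 t)
      have h6 : s * (r + H + κ - 1) + s = s * (r + H + κ) := by
        obtain ⟨m, hm⟩ : ∃ m, r + H + κ = m + 1 := ⟨r + H + κ - 1, by omega⟩
        rw [hm, Nat.add_sub_cancel]; ring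
      have h7 : 1 ≤ s := by
        have h8 := hsupp E hE3 t
        have h9 : 0 < (univ.filter (fun i => E t i ≠ 0)).card := card_pos.2 ⟨i, hi⟩
        omega
      omega
    obtain ⟨j, hj⟩ := hbig
    have h4 := himax j (by rw [mem_filter]; exact ⟨mem_univ _, by omega⟩)
    have h5 := hl1 i
    refine ⟨i, by omega, ?_⟩
    intro l hl hl0
    have h6 := himax l (by rw [mem_filter]; exact ⟨mem_univ _, hl0⟩)
    by_cases hrl : r ≤ E t l
    · rcases hl2 t l i hl hrl (by omega) with h7 | h7
      · exact h7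
      · omega
    · have h7 := hl1 l
      omega
  choose top htop1 htop2 using htop
  let n0 : Fin a → Fin a → ℕ := fun t l => if l = top t then κ else 0
  let P : Fin a → Fin a → ℕ := fun t l => E t l - n0 t l
  have hn0 : ∀ t l, n0 t l ≤ E t l := by
    intro t l
    by_cases h : l = top t
    · subst h
      simp only [n0, if_true]
      have := htop1 t
      omega
    · simp [n0, h]
  have hPE : ∀ t l, P t l + n0 t l = E t l := fun t l => Nat.sub_add_cancel (hn0 t l)
  have hn0s : ∀ t, ∑ l, n0 t l = κ := by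
    intro t
    simp [n0]
  have hPsupp : ∀ t l, E t l ≠ 0 → P t l ≠ 0 := by
    intro t l h
    by_cases h' : l = top t
    · subst h'
      have := htop1 t
      simp only [P, n0, if_true]
      omega
    · simp only [P, n0, h', if_false]
      omega
  have hPs : ∀ t, ∑ i, P t i = c := by
    intro t
    have h4 : ∑ i, (P t i + n0 t i) = c + κ := by
      rw [← hE1 t]
      exact sum_congr rfl (fun i _ => hPE t i)
    rw [sum_add_distrib, hn0s] at h4
    omega
  have hPt : ∀ t, 1 ≤ P t t := by
    intro t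
    have h4 := hPsupp t t (by have := hE2 t; omega)
    omega
  have hrel' := hrel P hPs hPt (fun i => ∑ t, n0 t i)
  have hn0mem : n0 ∈ Dist a κ (fun i => ∑ t, n0 t i) := mem_Dist.2 ⟨hn0s, fun i => rfl⟩
  rw [Finset.sum_eq_single_of_mem n0 hn0mem] at hrel'
  · have h4 : (fun t i => P t i + n0 t i) = E := by
      funext t i; exact hPE t i
    rw [h4] at hrel'
    rcases mul_eq_zero.1 hrel' with h5 | h5
    · have h6 : (∏ t, (Nat.multinomial univ (n0 t) : ℂ)) ≠ 0 := by
        rw [prod_ne_zero_iff]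
        intro t _
        exact_mod_cast (Nat.multinomial_pos univ (n0 t)).ne'
      exact h6 h5
    · exact hE3 h5
  · intro n hn hne0
    rw [mem_Dist] at hn
    obtain ⟨hnr, hnc⟩ := hn
    by_contra hGn
    have hG : G (fun t i => P t i + n t i) ≠ 0 := right_ne_zero_of_mul hGn
    set E' : Fin a → Fin a → ℕ := fun t i => P t i + n t i with hE'
    have hS' : E' ∈ S := by
      refine ⟨fun t => ?_, fun t => ?_, hG⟩
      · simp only [hE', sum_add_distrib, hPs, hnr]
      · simp only [hE']
        have := hPt t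
        omega
    have hnot := hmin E' hS'
    apply hnot
    change toLex (a * a - σ E', Φ E') < toLex (a * a - σ E, Φ E)
    rw [Prod.Lex.toLex_lt_toLex]
    have hsub : ∀ t, (univ.filter (fun i => E t i ≠ 0)) ⊆ (univ.filter (fun i => E' t i ≠ 0)) := by
      intro t i hi
      rw [mem_filter] at hi ⊢
      refine ⟨mem_univ _, ?_⟩
      have := hPsupp t i hi.2
      simp only [hE']
      omega
    have hle : σ E ≤ σ E' := sum_le_sum (fun t _ => card_le_card (hsub t))
    rcases hle.lt_or_eq with hlt | heq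
    · left
      have h4 := hσ E'
      simp only
      omega
    · right
      refine ⟨by simp only [heq], ?_⟩
      have heqt : ∀ t, (univ.filter (fun i => E' t i ≠ 0)) = (univ.filter (fun i => E t i ≠ 0)) := by
        intro t
        have h4 := (sum_eq_sum_iff_of_le (fun t _ => card_le_card (hsub t))).1 heq t (mem_univ t)
        exact (eq_of_subset_of_card_le (hsub t) h4.ge).symm
      have hnsupp : ∀ t l, n t l ≠ 0 → E t l ≠ 0 := by
        intro t l h
        have h4 : l ∈ univ.filter (fun i => E' t i ≠ 0) := by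
          rw [mem_filter]
          refine ⟨mem_univ _, ?_⟩
          simp only [hE']
          omega
        rw [heqt t, mem_filter] at h4
        exact h4.2
      have hrow : ∀ t, ∑ l, (((E' t l : ℕ) : ℤ) ^ 2 - ((E t l : ℕ) : ℤ) ^ 2) ≤
          -2 * ((κ : ℤ) - n t (top t)) -
            2 * ∑ l, (lam l : ℤ) * ((n t l : ℤ) - (n0 t l : ℤ)) := by
        intro t
        have h4 := row_est (κ := κ) (fun l => (E t l : ℤ) + lam l) (fun l => (E t l : ℤ))
          (fun l => (n t l : ℤ) - (n0 t l : ℤ)) (fun l => (lam l : ℤ)) (fun l => rfl) (top t)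
          (n t) (hnr t) (fun l => by simp only [n0]; push_cast; rfl) (fun l hl hl0 => by
            have h5 := htop2 t l hl (hnsupp t l hl0)
            have h6 : ((E t l + lam l + κ : ℕ) : ℤ) < ((E t (top t) + lam (top t) : ℕ) : ℤ) := by
              exact_mod_cast h5
            push_cast at h6
            exact h6)
        refine le_trans (le_of_eq ?_) h4
        refine sum_congr rfl (fun l _ => ?_)
        have h7 : ((E' t l : ℕ) : ℤ) = (E t l : ℤ) + ((n t l : ℤ) - (n0 t l : ℤ)) := by
          have h8 := hPE t l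
          simp only [hE']
          push_cast
          have h9 : (P t l : ℤ) + n0 t l = E t l := by exact_mod_cast h8
          linarith
        rw [h7]
      have hlamsum : ∑ t, ∑ l, (lam l : ℤ) * ((n t l : ℤ) - (n0 t l : ℤ)) = 0 := by
        rw [sum_comm]
        refine sum_eq_zero (fun l _ => ?_)
        rw [← mul_sum, sum_sub_distrib]
        have h4 : (∑ t, (n t l : ℤ)) = ∑ t, (n0 t l : ℤ) := by
          exact_mod_cast hnc l
        rw [h4]; ring
      have htot : ((Φ E' : ℕ) : ℤ) - ((Φ E : ℕ) : ℤ) ≤ ∑ t, (-2 * ((κ : ℤ) - n t (top t))) := by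
        have h4 : ((Φ E' : ℕ) : ℤ) - ((Φ E : ℕ) : ℤ) =
            ∑ t, ∑ l, (((E' t l : ℕ) : ℤ) ^ 2 - ((E t l : ℕ) : ℤ) ^ 2) := by
          simp only [Φ]
          push_cast
          simp only [sum_sub_distrib]
        rw [h4]
        calc _ ≤ ∑ t, (-2 * ((κ : ℤ) - n t (top t)) -
            2 * ∑ l, (lam l : ℤ) * ((n t l : ℤ) - (n0 t l : ℤ))) :=
              sum_le_sum (fun t _ => hrow t)
          _ = ∑ t, (-2 * ((κ : ℤ) - n t (top t))) := by
              rw [sum_sub_distrib]
              have h5 : ∑ t, 2 * ∑ l, (lam l : ℤ) * ((n t l : ℤ) - (n0 t l : ℤ)) = 0 := by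
                rw [← mul_sum, hlamsum]; ring
              rw [h5]; ring
      have hnle : ∀ t, n t (top t) ≤ κ := by
        intro t
        rw [← hnr t]
        exact single_le_sum (fun _ _ => Nat.zero_le _) (mem_univ _)
      have hex : ∃ t, n t (top t) < κ := by
        by_contra hc
        push Not at hc
        apply hne0
        funext t l
        have h4 : n t (top t) = κ := le_antisymm (hnle t) (hc t)
        by_cases hl : l = top t
        · subst hl; simp [n0, h4]
        · simp only [n0, hl, if_false]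
          have h5 : ∑ l ∈ univ.erase (top t), n t l + n t (top t) = κ := by
            rw [sum_erase_add _ _ (mem_univ _), hnr]
          have h6 : ∑ l ∈ univ.erase (top t), n t l = 0 := by omega
          rw [sum_eq_zero_iff] at h6
          exact h6 l (mem_erase.2 ⟨hl, mem_univ _⟩)
      have hneg : ∑ t, (-2 * ((κ : ℤ) - n t (top t))) < 0 := by
        obtain ⟨t0, ht0⟩ := hex
        refine sum_neg' (fun t _ => ?_) ⟨t0, mem_univ _, ?_⟩
        · have h4 : (n t (top t) : ℤ) ≤ κ := by exact_mod_cast hnle t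
          linarith
        · have h4 : (n t0 (top t0) : ℤ) < κ := by exact_mod_cast ht0
          linarith
      have h8 : ((Φ E' : ℕ) : ℤ) < ((Φ E : ℕ) : ℤ) := by linarith
      exact_mod_cast h8

end Vale.Agent.P181.H49
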